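import Vale.Agent.P137.Main

/-!
# P137: endpoint Sobolev regularity of the uncentered Hardy-Littlewood maximal function

For every dimension `d ≥ 1` there is a constant `C` such that for every `f ∈ W^{1,1}(ℝ^d)` the
uncentered maximal function (all Euclidean balls containing the point) is finite almost
everywhere, is in `W^{1,1}_loc(ℝ^d)`, and its weak gradient satisfies `∫ |∇ M f| ≤ C ∫ |∇ f|`.
-/

namespace Vale.Agent.Results.P137.UncenteredSobolev

open MeasureTheory Metric
open scoped ENNReal ContDiff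

/-- `G` is a weak gradient of `f` on `ℝ^d`: integration by parts holds for every smooth compactly
supported `φ` and every direction `v`. -/
def WeakGradient {d : ℕ} (f : EuclideanSpace ℝ (Fin d) → ℝ)
    (G : EuclideanSpace ℝ (Fin d) → EuclideanSpace ℝ (Fin d)) : Prop :=
  ∀ φ : EuclideanSpace ℝ (Fin d) → ℝ, ContDiff ℝ ∞ φ → HasCompactSupport φ →
    ∀ v : EuclideanSpace ℝ (Fin d),
      ∫ x, f x * fderiv ℝ φ x v = -∫ x, inner ℝ (G x) v * φ x

/-- The uncentered Hardy-Littlewood maximal function: the supremum of the averages of `|f|` over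
all open Euclidean balls `B(c, r)` that contain `x`. -/
noncomputable def uncenteredMaximal {d : ℕ} (f : EuclideanSpace ℝ (Fin d) → ℝ)
    (x : EuclideanSpace ℝ (Fin d)) : ℝ≥0∞ :=
  ⨆ (c : EuclideanSpace ℝ (Fin d)) (r : ℝ) (_ : x ∈ ball c r),
    (∫⁻ y in ball c r, ‖f y‖ₑ) / volume (ball c r)

/-- Endpoint Sobolev regularity of the uncentered maximal function in every dimension. -/
theorem result (d : ℕ) (hd : 1 ≤ d) :
    ∃ C : ℝ, ∀ (f : EuclideanSpace ℝ (Fin d) → ℝ)
      (G : EuclideanSpace ℝ (Fin d) → EuclideanSpace ℝ (Fin d)),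
      Integrable f → Integrable G → WeakGradient f G →
      (∀ᵐ x, uncenteredMaximal f x < ⊤) ∧
      LocallyIntegrable (fun x => (uncenteredMaximal f x).toReal) ∧
      ∃ G' : EuclideanSpace ℝ (Fin d) → EuclideanSpace ℝ (Fin d),
        Integrable G' ∧ WeakGradient (fun x => (uncenteredMaximal f x).toReal) G' ∧
        ∫ x, ‖G' x‖ ≤ C * ∫ x, ‖G x‖ :=
  P137.main d hd

end Vale.Agent.Results.P137.UncenteredSobolev
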