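import Vale.Agent.P137.Main
import Vale.Agent.P137.BVMain

/-!
# P137: endpoint regularity of the uncentered maximal function, Sobolev and BV versions

For every dimension `d ≥ 1` there is a constant `C` such that:
* for every `f ∈ W^{1,1}(ℝ^d)` the uncentered maximal function is finite almost everywhere, is in
  `W^{1,1}_loc(ℝ^d)` and its weak gradient satisfies `∫ |∇ M f| ≤ C ∫ |∇ f|`;
* if `d ≥ 2`, for every locally integrable `f` of finite variation the uncentered maximal function
  is finite almost everywhere, locally integrable and `Var (M f) ≤ C Var f`.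
-/

namespace Vale.Agent.Results.P137.UncenteredSobolevBV

open MeasureTheory Metric
open scoped ENNReal ContDiff

/-- `G` is a weak gradient of `f` on `ℝ^d`: integration by parts holds for every smooth compactly
supported `φ` and every direction `v`. -/
def WeakGradient {d : ℕ} (f : EuclideanSpace ℝ (Fin d) → ℝ)
    (G : EuclideanSpace ℝ (Fin d) → EuclideanSpace ℝ (Fin d)) : Prop :=
  ∀ φ : EuclideanSpace ℝ (Fin d) → ℝ, ContDiff ℝ ∞ φ → HasCompactSupport φ →
    ∀ v : EuclideanSpace ℝ (Fin d),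
      ∫ x, f x * fderiv ℝ φ x v = -∫ x, inner ℝ (G x) v * φ x

/-- The divergence of a vector field. -/
noncomputable def divergence {d : ℕ}
    (φ : EuclideanSpace ℝ (Fin d) → EuclideanSpace ℝ (Fin d)) (x : EuclideanSpace ℝ (Fin d)) : ℝ :=
  ∑ i, (fderiv ℝ φ x (EuclideanSpace.single i 1)) i

/-- The total variation of `f` is at most `K` (supremum over smooth compactly supported vector
fields bounded by one). -/
def VariationLE {d : ℕ} (f : EuclideanSpace ℝ (Fin d) → ℝ) (K : ℝ) : Prop :=
  ∀ φ : EuclideanSpace ℝ (Fin d) → EuclideanSpace ℝ (Fin d), ContDiff ℝ ∞ φ →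
    HasCompactSupport φ → (∀ x, ‖φ x‖ ≤ 1) → ∫ x, f x * divergence φ x ≤ K

/-- The uncentered Hardy-Littlewood maximal function: the supremum of the averages of `|f|` over
all open Euclidean balls `B(c, r)` that contain `x`. -/
noncomputable def uncenteredMaximal {d : ℕ} (f : EuclideanSpace ℝ (Fin d) → ℝ)
    (x : EuclideanSpace ℝ (Fin d)) : ℝ≥0∞ :=
  ⨆ (c : EuclideanSpace ℝ (Fin d)) (r : ℝ) (_ : x ∈ ball c r),
    (∫⁻ y in ball c r, ‖f y‖ₑ) / volume (ball c r)

/-- The variation bound in real form. -/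
theorem bv_part (d : ℕ) (hd : 2 ≤ d) :
    ∃ C : ℝ, 0 ≤ C ∧ ∀ (f : EuclideanSpace ℝ (Fin d) → ℝ) (K : ℝ), LocallyIntegrable f →
      VariationLE f K →
      (∀ᵐ x, uncenteredMaximal f x < ⊤) ∧
      LocallyIntegrable (fun x => (uncenteredMaximal f x).toReal) ∧
      VariationLE (fun x => (uncenteredMaximal f x).toReal) (C * K) := by
  obtain ⟨C, hC⟩ := P137.main_bv d hd
  refine ⟨C, C.2, fun f K hf hK => ?_⟩
  have hK0 : 0 ≤ K := by
    have := hK (fun _ => 0) contDiff_const HasCompactSupport.zero (fun x => by simp)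
    simpa [divergence] using this
  obtain ⟨h1, h2, h3⟩ := hC f K.toNNReal hf (fun φ hφ => by
    rw [← ENNReal.ofReal]
    exact ENNReal.ofReal_le_ofReal (hK φ hφ.smooth hφ.supp hφ.bound))
  refine ⟨h1, h2, fun φ a b c => ?_⟩
  have h4 := h3 φ ⟨a, b, c⟩
  have h5 : (C : ℝ≥0∞) * (K.toNNReal : ℝ≥0∞) = ENNReal.ofReal (C * K) := by
    rw [ENNReal.ofReal_mul (NNReal.coe_nonneg C), ENNReal.ofReal_coe_nnreal]
    rfl
  rw [h5] at h4
  exact (ENNReal.ofReal_le_ofReal_iff (mul_nonneg C.2 hK0)).1 h4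

/-- Endpoint Sobolev and BV regularity of the uncentered maximal function. -/
theorem result (d : ℕ) (hd : 1 ≤ d) :
    ∃ C : ℝ,
      (∀ (f : EuclideanSpace ℝ (Fin d) → ℝ)
        (G : EuclideanSpace ℝ (Fin d) → EuclideanSpace ℝ (Fin d)),
        Integrable f → Integrable G → WeakGradient f G →
        (∀ᵐ x, uncenteredMaximal f x < ⊤) ∧
        LocallyIntegrable (fun x => (uncenteredMaximal f x).toReal) ∧
        ∃ G' : EuclideanSpace ℝ (Fin d) → EuclideanSpace ℝ (Fin d),
          Integrable G' ∧ WeakGradient (fun x => (uncenteredMaximal f x).toReal) G' ∧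
          ∫ x, ‖G' x‖ ≤ C * ∫ x, ‖G x‖) ∧
      (2 ≤ d → ∀ (f : EuclideanSpace ℝ (Fin d) → ℝ) (K : ℝ),
        LocallyIntegrable f → VariationLE f K →
        (∀ᵐ x, uncenteredMaximal f x < ⊤) ∧
        LocallyIntegrable (fun x => (uncenteredMaximal f x).toReal) ∧
        VariationLE (fun x => (uncenteredMaximal f x).toReal) (C * K)) := by
  obtain ⟨C1, h1⟩ := P137.main d hd
  by_cases h2 : 2 ≤ d
  · obtain ⟨C2, -, hC2⟩ := bv_part d h2
    refine ⟨max C1 C2, fun f G hf hG hw => ?_, fun _ f K hf hK => ?_⟩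
    · obtain ⟨a, b, G', c1, c2, c3⟩ := h1 f G hf hG hw
      refine ⟨a, b, G', c1, c2, c3.trans ?_⟩
      exact mul_le_mul_of_nonneg_right (le_max_left _ _) (integral_nonneg fun x => norm_nonneg _)
    · obtain ⟨a, b, c⟩ := hC2 f K hf hK
      refine ⟨a, b, fun φ p q r => (c φ p q r).trans ?_⟩
      have hK0 : 0 ≤ K := by
        have := hK (fun _ => 0) contDiff_const HasCompactSupport.zero (fun x => by simp)
        simpa [divergence] using this
      exact mul_le_mul_of_nonneg_right (le_max_right _ _) hK0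
  · exact ⟨C1, h1, fun h => absurd h h2⟩

end Vale.Agent.Results.P137.UncenteredSobolevBV
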